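import Mathlib

/-!
Zero divisors in group algebras: only the support of one of the two factors matters.
-/

namespace Vale.Agent.Results.P201.OneSidedSupport

open MonoidAlgebra

variable {K G : Type*} [Field K] [Group G]

/-- pull back to the subgroup `H` -/
noncomputable def E (H : Subgroup G) : MonoidAlgebra K G →+ MonoidAlgebra K H :=
  comapDomainAddMonoidHom (R := K) H.subtype Subtype.val_injective

/-- the inclusion `K[H] → K[G]` -/
noncomputable def inc (H : Subgroup G) : MonoidAlgebra K H →+* MonoidAlgebra K G :=
  mapDomainRingHom K H.subtype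

theorem key (H : Subgroup G) (x : MonoidAlgebra K H) (b : MonoidAlgebra K G) :
    E H (inc H x * b) = x * E H b := by
  induction x using MonoidAlgebra.induction_linear with
  | zero => simp
  | add x y hx hy => rw [map_add, add_mul, map_add, hx, hy, add_mul]
  | single h k =>
    induction b using MonoidAlgebra.induction_linear with
    | zero => simp
    | add x y hx hy => rw [mul_add, map_add, hx, hy, map_add, mul_add]
    | single g c =>
      have e1 : inc H (single h k) = single (h : G) k := by
        unfold inc
        simp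
      rw [e1, single_mul_single]
      by_cases hg : g ∈ H
      · have e2 : E H (single g c : MonoidAlgebra K G) = single (⟨g, hg⟩ : H) c :=
          comapDomain_single_map (R := K) H.subtype Subtype.val_injective (⟨g, hg⟩ : H) c
        have e3 : E H (single ((h : G) * g) (k * c) : MonoidAlgebra K G) =
            single (h * ⟨g, hg⟩ : H) (k * c) :=
          comapDomain_single_map (R := K) H.subtype Subtype.val_injective (h * ⟨g, hg⟩ : H) (k * c)
        rw [e2, e3, single_mul_single]
      · have e2 : E H (single g c : MonoidAlgebra K G) = 0 :=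
          comapDomain_single_of_not_mem_range (by
            rintro ⟨y, rfl⟩
            exact hg y.2) Subtype.val_injective
        have e3 : E H (single ((h : G) * g) (k * c) : MonoidAlgebra K G) = 0 :=
          comapDomain_single_of_not_mem_range (by
            rintro ⟨y, hy⟩
            apply hg
            have : g = (h : G)⁻¹ * y := by
              rw [show (y : G) = (h : G) * g from hy]
              group
            rw [this]
            exact H.mul_mem (H.inv_mem h.2) y.2) Subtype.val_injective
        rw [e2, e3, mul_zero]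

theorem keyR (H : Subgroup G) (x : MonoidAlgebra K H) (b : MonoidAlgebra K G) :
    E H (b * inc H x) = E H b * x := by
  induction x using MonoidAlgebra.induction_linear with
  | zero => simp
  | add x y hx hy => rw [map_add, mul_add, map_add, hx, hy, mul_add]
  | single h k =>
    induction b using MonoidAlgebra.induction_linear with
    | zero => simp
    | add x y hx hy => rw [add_mul, map_add, hx, hy, map_add, add_mul]
    | single g c =>
      have e1 : inc H (single h k) = single (h : G) k := by
        unfold inc
        simp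
      rw [e1, single_mul_single]
      by_cases hg : g ∈ H
      · have e2 : E H (single g c : MonoidAlgebra K G) = single (⟨g, hg⟩ : H) c :=
          comapDomain_single_map (R := K) H.subtype Subtype.val_injective (⟨g, hg⟩ : H) c
        have e3 : E H (single (g * (h : G)) (c * k) : MonoidAlgebra K G) =
            single (⟨g, hg⟩ * h : H) (c * k) :=
          comapDomain_single_map (R := K) H.subtype Subtype.val_injective (⟨g, hg⟩ * h : H) (c * k)
        rw [e2, e3, single_mul_single]
      · have e2 : E H (single g c : MonoidAlgebra K G) = 0 :=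
          comapDomain_single_of_not_mem_range (by
            rintro ⟨y, rfl⟩
            exact hg y.2) Subtype.val_injective
        have e3 : E H (single (g * (h : G)) (c * k) : MonoidAlgebra K G) = 0 :=
          comapDomain_single_of_not_mem_range (by
            rintro ⟨y, hy⟩
            apply hg
            have : g = y * (h : G)⁻¹ := by
              rw [show (y : G) = g * (h : G) from hy]
              group
            rw [this]
            exact H.mul_mem y.2 (H.inv_mem h.2)) Subtype.val_injective
        rw [e2, e3, zero_mul]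

theorem coeff_E (H : Subgroup G) (x : MonoidAlgebra K G) : (E H x).coeff 1 = x.coeff 1 := by
  exact congrArg (fun f : H →₀ K => f 1)
    (coeff_comapDomain (R := K) H.subtype H.subtype_injective x)

theorem uniqueProds_bot : UniqueProds (⊥ : Subgroup G) where
  uniqueMul_of_nonempty := by
    intro A B hA hB
    obtain ⟨x, hx⟩ := hA
    obtain ⟨y, hy⟩ := hB
    exact ⟨x, hx, y, hy, fun _ _ _ _ _ => ⟨Subsingleton.elim _ _, Subsingleton.elim _ _⟩⟩

/-- support of the left factor in `H` -/
theorem coreL (H : Subgroup G) (hH : ∀ x y : MonoidAlgebra K H, x * y = 0 → x = 0 ∨ y = 0)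
    (a b : MonoidAlgebra K G) (ha : ∀ x ∈ a.coeff.support, x ∈ H) (hab : a * b = 0) :
    a = 0 ∨ b = 0 := by
  have hX : inc H (E H a) = a :=
    mapDomain_comapDomain (R := K) (f := H.subtype) (x := a) (by
      intro g hg
      exact ⟨⟨g, ha g hg⟩, rfl⟩) Subtype.val_injective
  by_cases ha0 : E H a = 0
  · left
    rw [← hX, ha0, map_zero]
  right
  have h1 : ∀ t : G, b.coeff t = 0 := by
    intro t
    have h2 : E H a * E H (b * single t⁻¹ 1) = 0 := by
      rw [← key, hX, ← mul_assoc, hab, zero_mul, map_zero]
    have h3 := (hH _ _ h2).resolve_left ha0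
    have h4 : (b * single t⁻¹ 1 : MonoidAlgebra K G).coeff 1 = 0 := by
      rw [← coeff_E H, h3]
      simp
    rw [b.coeff_mul_single_eq_coeff_mul t (fun m' _ => ⟨fun h => by
      rw [← mul_inv_eq_one]; exact h, fun h => by rw [h, mul_inv_cancel]⟩), mul_one] at h4
    exact h4
  exact coeff_injective (Finsupp.ext fun t => by simpa using h1 t)

/-- support of the right factor in `H` -/
theorem coreR (H : Subgroup G) (hH : ∀ x y : MonoidAlgebra K H, x * y = 0 → x = 0 ∨ y = 0)
    (a b : MonoidAlgebra K G) (hb : ∀ x ∈ b.coeff.support, x ∈ H) (hab : a * b = 0) :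
    a = 0 ∨ b = 0 := by
  have hX : inc H (E H b) = b :=
    mapDomain_comapDomain (R := K) (f := H.subtype) (x := b) (by
      intro g hg
      exact ⟨⟨g, hb g hg⟩, rfl⟩) Subtype.val_injective
  by_cases hb0 : E H b = 0
  · right
    rw [← hX, hb0, map_zero]
  left
  have h1 : ∀ t : G, a.coeff t = 0 := by
    intro t
    have h2 : E H (single t⁻¹ 1 * a) * E H b = 0 := by
      rw [← keyR, hX, mul_assoc, hab, mul_zero, map_zero]
    have h3 := (hH _ _ h2).resolve_right hb0
    have h4 : (single t⁻¹ 1 * a : MonoidAlgebra K G).coeff 1 = 0 := by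
      rw [← coeff_E H, h3]
      simp
    rw [a.coeff_single_mul_eq_mul_coeff t (fun m' _ => ⟨fun h => by
      rw [← inv_mul_eq_one]; rw [inv_mul_eq_one] at h ⊢; exact h.symm, fun h => by
      rw [h, inv_mul_cancel]⟩), one_mul] at h4
    exact h4
  exact coeff_injective (Finsupp.ext fun t => by simpa using h1 t)

theorem supp_shift {H : Subgroup G} {a : MonoidAlgebra K G} {g : G}
    (ha : ∀ x ∈ a.coeff.support, g⁻¹ * x ∈ H) :
    ∀ x ∈ (single g⁻¹ 1 * a : MonoidAlgebra K G).coeff.support, x ∈ H := by
  intro x hx
  rw [Finsupp.mem_support_iff] at hx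
  rw [a.coeff_single_mul_eq_mul_coeff (g * x) (fun m' _ => ⟨fun h => by rw [← h]; group,
    fun h => by rw [h]; group⟩), one_mul] at hx
  simpa using ha (g * x) (Finsupp.mem_support_iff.2 hx)

theorem single_mul_cancel {g : G} {a : MonoidAlgebra K G} (h : single g (1 : K) * a = 0) :
    a = 0 := by
  have h1 : (single g⁻¹ (1 : K) : MonoidAlgebra K G) * single g 1 = 1 := by
    rw [single_mul_single, inv_mul_cancel, one_mul, one_def]
  rw [← one_mul a, ← h1, mul_assoc, h, mul_zero]

theorem mul_single_cancel {g : G} {a : MonoidAlgebra K G} (h : a * single g (1 : K) = 0) :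
    a = 0 := by
  have h1 : (single g (1 : K) : MonoidAlgebra K G) * single g⁻¹ 1 = 1 := by
    rw [single_mul_single, mul_inv_cancel, one_mul, one_def]
  rw [← mul_one a, ← h1, ← mul_assoc, h, zero_mul]

/-- one of the supports in a left coset of `H` -/
theorem coset (H : Subgroup G) (hH : ∀ x y : MonoidAlgebra K H, x * y = 0 → x = 0 ∨ y = 0)
    (a b : MonoidAlgebra K G) (g : G) (h : (∀ x ∈ a.coeff.support, g⁻¹ * x ∈ H) ∨
      (∀ x ∈ b.coeff.support, g⁻¹ * x ∈ H)) (hab : a * b = 0) : a = 0 ∨ b = 0 := by
  rcases h with h | h
  · have h1 : (single g⁻¹ 1 * a) * b = 0 := by rw [mul_assoc, hab, mul_zero]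
    rcases coreL H hH _ _ (supp_shift h) h1 with h2 | h2
    · exact Or.inl (single_mul_cancel h2)
    · exact Or.inr h2
  · have hg2 : (single g 1 : MonoidAlgebra K G) * single g⁻¹ 1 = 1 := by
      rw [single_mul_single, mul_inv_cancel, one_mul, one_def]
    have h1 : (a * single g 1) * (single g⁻¹ 1 * b) = 0 := by
      calc (a * single g 1) * (single g⁻¹ 1 * b) = a * (single g 1 * single g⁻¹ 1) * b := by
            simp only [mul_assoc]
        _ = 0 := by rw [hg2, mul_one, hab]
    rcases coreR H hH _ _ (supp_shift h) h1 with h2 | h2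
    · exact Or.inl (mul_single_cancel h2)
    · exact Or.inr (single_mul_cancel h2)

/-- Let `K` be a field, `G` any group and `a b = 0` in `K[G]`. If the support of `a` or the support
of `b` lies in a left coset of a subgroup `H` such that `K[H]` has no zero divisors, then `a = 0` or
`b = 0`; in particular if `H` has the unique-product property. If `G` is torsion-free, this holds as
soon as one of the two supports has at most two elements. -/
theorem result (K G : Type) [Field K] [Group G] :
    (∀ (H : Subgroup G), (∀ x y : MonoidAlgebra K H, x * y = 0 → x = 0 ∨ y = 0) →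
      ∀ (a b : MonoidAlgebra K G) (g : G), ((∀ x ∈ a.coeff.support, g⁻¹ * x ∈ H) ∨
        (∀ x ∈ b.coeff.support, g⁻¹ * x ∈ H)) → a * b = 0 → a = 0 ∨ b = 0) ∧
    (∀ (H : Subgroup G), UniqueProds H →
      ∀ (a b : MonoidAlgebra K G) (g : G), ((∀ x ∈ a.coeff.support, g⁻¹ * x ∈ H) ∨
        (∀ x ∈ b.coeff.support, g⁻¹ * x ∈ H)) → a * b = 0 → a = 0 ∨ b = 0) ∧
    ((∀ g : G, g ≠ 1 → ∀ n : ℕ, 0 < n → g ^ n ≠ 1) →
      ∀ a b : MonoidAlgebra K G, (a.coeff.support.card ≤ 2 ∨ b.coeff.support.card ≤ 2) →
        a * b = 0 → a = 0 ∨ b = 0) := by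
  have h2 : ∀ (H : Subgroup G), UniqueProds H →
      ∀ (a b : MonoidAlgebra K G) (g : G), ((∀ x ∈ a.coeff.support, g⁻¹ * x ∈ H) ∨
        (∀ x ∈ b.coeff.support, g⁻¹ * x ∈ H)) → a * b = 0 → a = 0 ∨ b = 0 := by
    intro H hU a b g h hab
    exact coset H (fun x y hxy => mul_eq_zero.1 hxy) a b g h hab
  refine ⟨fun H hH a b g h hab => coset H hH a b g h hab, h2, fun htf a b h hab => ?_⟩
  have hcyc : ∀ c : MonoidAlgebra K G, c.coeff.support.card ≤ 2 →
      ∃ (H : Subgroup G) (g : G), UniqueProds H ∧ ∀ x ∈ c.coeff.support, g⁻¹ * x ∈ H := by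
    classical
    intro c hc
    rcases Finset.eq_empty_or_nonempty c.coeff.support with h0 | ⟨g, hg⟩
    · exact ⟨⊥, 1, uniqueProds_bot, fun x hx => by rw [h0] at hx; simp at hx⟩
    by_cases h1 : ∃ y ∈ c.coeff.support, y ≠ g
    · obtain ⟨y, hy, hyg⟩ := h1
      have hsub : c.coeff.support = {g, y} := by
        symm
        apply Finset.eq_of_subset_of_card_le
        · intro t ht
          simp only [Finset.mem_insert, Finset.mem_singleton] at ht
          rcases ht with rfl | rfl <;> assumption
        · rw [Finset.card_pair (Ne.symm hyg)]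
          exact hc
      have ht1 : g⁻¹ * y ≠ 1 := fun h => hyg (inv_mul_eq_one.1 h).symm
      have hinj : Function.Injective (zpowersHom G (g⁻¹ * y)) := by
        rw [injective_iff_map_eq_one]
        intro n hn
        rw [zpowersHom_apply] at hn
        by_contra hne
        have hn0 : n.toAdd ≠ 0 := fun h => hne (by rw [← ofAdd_toAdd n, h, ofAdd_zero])
        have h5 : (g⁻¹ * y) ^ (n.toAdd).natAbs = 1 := by
          rcases Int.natAbs_eq n.toAdd with h6 | h6
          · rw [h6, zpow_natCast] at hn
            exact hn
          · rw [h6, zpow_neg, inv_eq_one, zpow_natCast] at hn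
            exact hn
        exact htf _ ht1 _ (Int.natAbs_pos.2 hn0) h5
      refine ⟨(zpowersHom G (g⁻¹ * y)).range, g,
        (MulEquiv.uniqueProds_iff (MonoidHom.ofInjective hinj)).1 inferInstance, ?_⟩
      intro x hx
      rw [hsub] at hx
      simp only [Finset.mem_insert, Finset.mem_singleton] at hx
      rcases hx with rfl | rfl
      · rw [inv_mul_cancel]
        exact Subgroup.one_mem _
      · exact ⟨Multiplicative.ofAdd 1, by simp⟩
    · push Not at h1
      refine ⟨⊥, g, uniqueProds_bot, fun x hx => ?_⟩
      rw [h1 x hx, inv_mul_cancel]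
      exact Subgroup.one_mem _
  rcases h with h | h
  · obtain ⟨H, g, hU, hs⟩ := hcyc a h
    exact h2 H hU a b g (Or.inl hs) hab
  · obtain ⟨H, g, hU, hs⟩ := hcyc b h
    exact h2 H hU a b g (Or.inr hs) hab

end Vale.Agent.Results.P201.OneSidedSupport
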